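import Vale.Agent.P045.SD.Defs

/-! P045: Ryser's conjecture for small maximum degree. -/

namespace Vale.Agent.P045

open Finset

variable {V : Type*} [DecidableEq V]

/-- Caro-Wei bound. -/
theorem caro_wei {β : Type*} [DecidableEq β] (A : β → β → Prop) [DecidableRel A]
    (hsymm : ∀ a b, A a b → A b a) :
    ∀ (n : ℕ) (S : Finset β), S.card = n → ∃ I ⊆ S, (∀ a ∈ I, ∀ b ∈ I, a ≠ b → ¬ A a b) ∧
      ∑ a ∈ S, (1 : ℝ) / (1 + ((S.filter fun b => b ≠ a ∧ A a b).card : ℝ)) ≤ I.card := by
  intro n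
  induction n using Nat.strong_induction_on with
  | _ n ih =>
    intro S hS
    rcases S.eq_empty_or_nonempty with hS0 | hS0
    · refine ⟨∅, by simp, by simp, ?_⟩
      rw [hS0]; simp
    · obtain ⟨a, ha, hmin⟩ := S.exists_min_image
        (fun a => (S.filter fun b => b ≠ a ∧ A a b).card) hS0
      let N : Finset β := insert a (S.filter fun b => b ≠ a ∧ A a b)
      have hNS : N ⊆ S := by
        intro b hb
        rcases Finset.mem_insert.1 hb with h | h
        · rw [h]; exact ha
        · exact (Finset.mem_filter.1 h).1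
      have haN : a ∈ N := Finset.mem_insert_self _ _
      have hlt : (S \ N).card < n := by
        rw [← hS]
        apply Finset.card_lt_card
        refine ⟨Finset.sdiff_subset, fun h => ?_⟩
        exact (Finset.mem_sdiff.1 (h ha)).2 haN
      obtain ⟨I, hI, hind, hsum⟩ := ih _ hlt (S \ N) rfl
      have haI : a ∉ I := fun h => (Finset.mem_sdiff.1 (hI h)).2 haN
      have hnot : ∀ b ∈ I, ¬ A a b := by
        intro b hb hab
        have h1 := Finset.mem_sdiff.1 (hI hb)
        apply h1.2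
        by_cases hba : b = a
        · rw [hba]; exact haN
        · exact Finset.mem_insert_of_mem (Finset.mem_filter.2 ⟨h1.1, hba, hab⟩)
      refine ⟨insert a I, ?_, ?_, ?_⟩
      · intro b hb
        rcases Finset.mem_insert.1 hb with h | h
        · rw [h]; exact ha
        · exact (Finset.mem_sdiff.1 (hI h)).1
      · intro b hb c hc hbc
        rcases Finset.mem_insert.1 hb with h | h
        · rcases Finset.mem_insert.1 hc with h' | h'
          · exact absurd (h.trans h'.symm) hbc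
          · rw [h]; exact hnot c h'
        · rcases Finset.mem_insert.1 hc with h' | h'
          · rw [h']; exact fun hA => hnot b h (hsymm _ _ hA)
          · exact hind b h c h' hbc
      · rw [Finset.card_insert_of_notMem haI, ← Finset.sum_sdiff hNS]
        push_cast
        have h1 : ∑ b ∈ S \ N, (1 : ℝ) / (1 + ((S.filter fun c => c ≠ b ∧ A b c).card : ℝ)) ≤
            ∑ b ∈ S \ N, (1 : ℝ) / (1 + (((S \ N).filter fun c => c ≠ b ∧ A b c).card : ℝ)) := by
          refine Finset.sum_le_sum fun b _ => ?_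
          apply one_div_le_one_div_of_le (by positivity)
          have : (((S \ N).filter fun c => c ≠ b ∧ A b c).card : ℝ) ≤
              ((S.filter fun c => c ≠ b ∧ A b c).card : ℝ) := by
            exact_mod_cast Finset.card_le_card
              (Finset.filter_subset_filter _ Finset.sdiff_subset)
          linarith
        have h2 : ∑ b ∈ N, (1 : ℝ) / (1 + ((S.filter fun c => c ≠ b ∧ A b c).card : ℝ)) ≤ 1 := by
          have hNc : (N.card : ℝ) = 1 + ((S.filter fun b => b ≠ a ∧ A a b).card : ℝ) := by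
            have : a ∉ S.filter fun b => b ≠ a ∧ A a b := by simp
            simp only [N]
            rw [Finset.card_insert_of_notMem this]
            push_cast; ring
          calc ∑ b ∈ N, (1 : ℝ) / (1 + ((S.filter fun c => c ≠ b ∧ A b c).card : ℝ))
              ≤ ∑ b ∈ N, (1 : ℝ) / (1 + ((S.filter fun c => c ≠ a ∧ A a c).card : ℝ)) := by
                refine Finset.sum_le_sum fun b hb => ?_
                apply one_div_le_one_div_of_le (by positivity)
                have := hmin b (hNS hb)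
                have h3 : ((S.filter fun c => c ≠ a ∧ A a c).card : ℝ) ≤
                    ((S.filter fun c => c ≠ b ∧ A b c).card : ℝ) := by exact_mod_cast this
                linarith
            _ = 1 := by
                rw [Finset.sum_const, nsmul_eq_mul, hNc]
                field_simp
        linarith

theorem card_edge {r : ℕ} {part : V → Fin r} {H : Finset (Finset V)} (h : IsPartite r part H)
    {e : Finset V} (he : e ∈ H) : e.card = r := by
  have h1 : e.card = (univ : Finset (Fin r)).card := by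
    apply Finset.card_bij (fun v _ => part v)
    · intro v _; exact Finset.mem_univ _
    · intro v hv w hw hvw
      obtain ⟨u, -, hu⟩ := h e he (part w)
      rw [hu v ⟨hv, hvw⟩, hu w ⟨hw, rfl⟩]
    · intro i _
      obtain ⟨u, hu, -⟩ := h e he i
      exact ⟨u, hu.1, hu.2⟩
  rw [h1]; simp

/-- the set of non-isolated vertices -/
def U (H : Finset (Finset V)) : Finset V := H.biUnion id

theorem mem_U {H : Finset (Finset V)} {v : V} : v ∈ U H ↔ ∃ e ∈ H, v ∈ e := by
  simp [U]

theorem card_U (H : Finset (Finset V)) :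
    ((U H).card : ℝ) = ∑ e ∈ H, ∑ v ∈ e, (1 : ℝ) / (deg H v : ℝ) := by
  have h1 : ∀ e ∈ H, ∑ v ∈ e, (1 : ℝ) / (deg H v : ℝ) =
      ∑ v ∈ U H, if v ∈ e then (1 : ℝ) / (deg H v : ℝ) else 0 := by
    intro e he
    rw [← Finset.sum_filter]
    apply Finset.sum_congr _ (fun _ _ => rfl)
    ext v
    simp only [Finset.mem_filter, mem_U]
    exact ⟨fun h => ⟨⟨e, he, h⟩, h⟩, fun h => h.2⟩
  rw [Finset.sum_congr rfl h1, Finset.sum_comm]
  have h2 : ∀ v ∈ U H, ∑ e ∈ H, (if v ∈ e then (1 : ℝ) / (deg H v : ℝ) else 0) = 1 := by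
    intro v hv
    rw [← Finset.sum_filter, Finset.sum_const, nsmul_eq_mul]
    obtain ⟨e, he, hve⟩ := mem_U.1 hv
    have hpos : 0 < (H.filter fun e => v ∈ e).card :=
      Finset.card_pos.2 ⟨e, Finset.mem_filter.2 ⟨he, hve⟩⟩
    have hpos' : (0 : ℝ) < ((H.filter fun e => v ∈ e).card : ℝ) := by exact_mod_cast hpos
    unfold deg
    field_simp
  rw [Finset.sum_congr rfl h2]
  simp

/-- one part has at most the average number of vertices -/
theorem small_part {r : ℕ} (hr : 0 < r) (part : V → Fin r) (T : Finset V) :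
    ∃ i : Fin r, r * (T.filter fun v => part v = i).card ≤ T.card := by
  by_contra hcon
  push Not at hcon
  have h1 : T.card = ∑ i : Fin r, (T.filter fun v => part v = i).card :=
    Finset.card_eq_sum_card_fiberwise (f := part) (t := univ) (fun _ _ => by simp)
  have h2 : ∑ i : Fin r, T.card < ∑ i : Fin r, r * (T.filter fun v => part v = i).card := by
    apply Finset.sum_lt_sum_of_nonempty
    · exact ⟨⟨0, hr⟩, Finset.mem_univ _⟩
    · intro i _; exact hcon i
  rw [← Finset.mul_sum, ← h1] at h2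
  simp at h2

/-- the number of edges meeting an edge -/
theorem line_deg (H : Finset (Finset V)) {e : Finset V} (he : e ∈ H) :
    ((H.filter fun f => f ≠ e ∧ ¬ Disjoint e f).card : ℝ) ≤ ∑ v ∈ e, ((deg H v : ℝ) - 1) := by
  have h1 : (H.filter fun f => f ≠ e ∧ ¬ Disjoint e f) ⊆
      e.biUnion (fun v => (H.filter fun f => v ∈ f).erase e) := by
    intro f hf
    obtain ⟨hfH, hfe, hdis⟩ := Finset.mem_filter.1 hf
    rw [Finset.not_disjoint_iff] at hdis
    obtain ⟨v, hve, hvf⟩ := hdis
    exact Finset.mem_biUnion.2 ⟨v, hve, Finset.mem_erase.2 ⟨hfe, Finset.mem_filter.2 ⟨hfH, hvf⟩⟩⟩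
  have h2 : (H.filter fun f => f ≠ e ∧ ¬ Disjoint e f).card ≤
      ∑ v ∈ e, ((H.filter fun f => v ∈ f).erase e).card :=
    (Finset.card_le_card h1).trans Finset.card_biUnion_le
  have h3 : ∀ v ∈ e, (((H.filter fun f => v ∈ f).erase e).card : ℝ) = (deg H v : ℝ) - 1 := by
    intro v hv
    have hmem : e ∈ H.filter fun f => v ∈ f := Finset.mem_filter.2 ⟨he, hv⟩
    have hpos : 0 < (H.filter fun f => v ∈ f).card := Finset.card_pos.2 ⟨e, hmem⟩
    rw [Finset.card_erase_of_mem hmem]
    unfold deg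
    rw [Nat.cast_sub hpos]
    simp
  calc ((H.filter fun f => f ≠ e ∧ ¬ Disjoint e f).card : ℝ)
      ≤ ((∑ v ∈ e, ((H.filter fun f => v ∈ f).erase e).card : ℕ) : ℝ) := by exact_mod_cast h2
    _ = ∑ v ∈ e, (((H.filter fun f => v ∈ f).erase e).card : ℝ) := by push_cast; rfl
    _ = _ := Finset.sum_congr rfl h3

/-- The numerical condition. -/
def Num (r a D : ℕ) : Prop :=
  ∀ s : ℤ, (r : ℤ) * a ≤ s → s ≤ (r : ℤ) * D →
    ((r : ℤ) * (D + a) - s) * (s - r + 1) ≤ a * D * r * (r - 1)

/-- the pointwise inequality -/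
theorem pointwise {r a D : ℕ} (ha0 : 0 < a) (hD : 0 < D) (hnum : Num r a D)
    {H : Finset (Finset V)} {e : Finset V}
    (he : e ∈ H) (hcard : e.card = r) (h2 : ∀ v ∈ e, a ≤ deg H v) (hDv : ∀ v ∈ e, deg H v ≤ D) :
    ∑ v ∈ e, (1 : ℝ) / (deg H v : ℝ) ≤
      (r : ℝ) * ((r : ℝ) - 1) *
        (1 / (1 + ((H.filter fun f => f ≠ e ∧ ¬ Disjoint e f).card : ℝ))) := by
  have hD' : (0 : ℝ) < D := by exact_mod_cast hD
  have ha' : (0 : ℝ) < a := by exact_mod_cast ha0
  obtain ⟨s, hs⟩ : ∃ s : ℕ, s = ∑ v ∈ e, deg H v := ⟨_, rfl⟩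
  have hsR : (s : ℝ) = ∑ v ∈ e, (deg H v : ℝ) := by rw [hs]; push_cast; rfl
  have hsD : s ≤ r * D := by
    rw [hs]
    calc ∑ v ∈ e, deg H v ≤ ∑ v ∈ e, D := Finset.sum_le_sum hDv
      _ = r * D := by rw [Finset.sum_const, hcard, smul_eq_mul]
  have hsa : r * a ≤ s := by
    rw [hs]
    calc r * a = ∑ v ∈ e, a := by rw [Finset.sum_const, hcard, smul_eq_mul]
      _ ≤ ∑ v ∈ e, deg H v := Finset.sum_le_sum h2
  have h1 : ∑ v ∈ e, (1 : ℝ) / (deg H v : ℝ) ≤ ((r : ℝ) * (D + a) - s) / (a * D) := by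
    have : ((r : ℝ) * (D + a) - s) / (a * D) =
        ∑ v ∈ e, (((D : ℝ) + a) - (deg H v : ℝ)) / (a * D) := by
      rw [← Finset.sum_div, Finset.sum_sub_distrib, Finset.sum_const, hcard, nsmul_eq_mul, ← hsR]
    rw [this]
    refine Finset.sum_le_sum fun v hv => ?_
    have ha : (a : ℝ) ≤ deg H v := by exact_mod_cast h2 v hv
    have hb : (deg H v : ℝ) ≤ D := by exact_mod_cast hDv v hv
    have hc : (0 : ℝ) < deg H v := by linarith
    rw [div_le_div_iff₀ hc (by positivity)]
    nlinarith [mul_nonneg (sub_nonneg.2 ha) (sub_nonneg.2 hb)]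
  have h3 : 1 + ((H.filter fun f => f ≠ e ∧ ¬ Disjoint e f).card : ℝ) ≤ (s : ℝ) - r + 1 := by
    have := line_deg H he
    rw [Finset.sum_sub_distrib, Finset.sum_const, hcard, nsmul_eq_mul, mul_one, ← hsR] at this
    linarith
  have hpos : 0 < 1 + ((H.filter fun f => f ≠ e ∧ ¬ Disjoint e f).card : ℝ) := by positivity
  have hnum' : ((r : ℝ) * (D + a) - s) * ((s : ℝ) - r + 1) ≤ a * D * r * (r - 1) := by
    exact_mod_cast hnum (s : ℤ) (by exact_mod_cast hsa) (by exact_mod_cast hsD)
  have h4 : 0 ≤ (r : ℝ) * (D + a) - s := by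
    have h5 : (s : ℝ) ≤ r * D := by exact_mod_cast hsD
    have : (0 : ℝ) ≤ r := by positivity
    nlinarith
  refine h1.trans ?_
  rw [mul_one_div, div_le_div_iff₀ (by positivity) hpos]
  calc ((r : ℝ) * (D + a) - s) * (1 + ((H.filter fun f => f ≠ e ∧ ¬ Disjoint e f).card : ℝ))
      ≤ ((r : ℝ) * (D + a) - s) * ((s : ℝ) - r + 1) := mul_le_mul_of_nonneg_left h3 h4
    _ ≤ a * D * r * (r - 1) := hnum'
    _ = (r : ℝ) * ((r : ℝ) - 1) * (a * D) := by ring

theorem caseB {r : ℕ} (hr : 2 ≤ r) (part : V → Fin r) (H : Finset (Finset V))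
    (hP : IsPartite r part H)
    (hpt : ∀ e ∈ H, ∑ v ∈ e, (1 : ℝ) / (deg H v : ℝ) ≤
      (r : ℝ) * ((r : ℝ) - 1) *
        (1 / (1 + ((H.filter fun f => f ≠ e ∧ ¬ Disjoint e f).card : ℝ)))) :
    ∃ C M, IsCover H C ∧ IsMatching H M ∧ C.card ≤ (r - 1) * M.card := by
  obtain ⟨i, hi⟩ := small_part (by omega : 0 < r) part (U H)
  obtain ⟨I, hIH, hind, hsum⟩ := caro_wei (fun e f : Finset V => ¬ Disjoint e f)
    (fun e f h => fun h' => h h'.symm) _ H rfl
  refine ⟨(U H).filter fun v => part v = i, I, ?_, ⟨hIH, ?_⟩, ?_⟩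
  · intro e he
    obtain ⟨v, ⟨hv, hpv⟩, -⟩ := hP e he i
    exact ⟨v, Finset.mem_filter.2 ⟨mem_U.2 ⟨e, he, hv⟩, hpv⟩, hv⟩
  · intro e he f hf hef
    by_contra hcon
    exact hind e he f hf hef hcon
  · have hrR : (0 : ℝ) < r := by exact_mod_cast (by omega : 0 < r)
    have h1 : ((U H).card : ℝ) ≤ (r : ℝ) * ((r : ℝ) - 1) * I.card := by
      rw [card_U]
      calc ∑ e ∈ H, ∑ v ∈ e, (1 : ℝ) / (deg H v : ℝ)
          ≤ ∑ e ∈ H, (r : ℝ) * ((r : ℝ) - 1) *
            (1 / (1 + ((H.filter fun f => f ≠ e ∧ ¬ Disjoint e f).card : ℝ))) :=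
            Finset.sum_le_sum hpt
        _ = (r : ℝ) * ((r : ℝ) - 1) * ∑ e ∈ H,
            (1 / (1 + ((H.filter fun f => f ≠ e ∧ ¬ Disjoint e f).card : ℝ))) := by
            rw [← Finset.mul_sum]
        _ ≤ _ := by
            apply mul_le_mul_of_nonneg_left hsum
            have : (1 : ℝ) ≤ r := by exact_mod_cast (by omega : 1 ≤ r)
            have : (0 : ℝ) ≤ (r : ℝ) - 1 := by linarith
            positivity
    have h2 : (r : ℝ) * (((U H).filter fun v => part v = i).card : ℝ) ≤ (U H).card := by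
      exact_mod_cast hi
    have h3 : (r : ℝ) * (((U H).filter fun v => part v = i).card : ℝ) ≤
        (r : ℝ) * (((r : ℝ) - 1) * I.card) := by
      refine (h2.trans h1).trans (le_of_eq (by ring))
    have h4 := le_of_mul_le_mul_left h3 hrR
    have h5 : (((r - 1 : ℕ) : ℝ)) = (r : ℝ) - 1 := by
      rw [Nat.cast_sub (by omega)]; simp
    rw [← h5] at h4
    exact_mod_cast h4

theorem main_aux {r : ℕ} (hr : 2 ≤ r) (part : V → Fin r) (Q : Finset (Finset V) → Prop)
    (hQ : ∀ H H' : Finset (Finset V), H' ⊆ H → Q H → Q H')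
    (hpt : ∀ H : Finset (Finset V), Q H → IsPartite r part H →
      (∀ e ∈ H, ∀ v ∈ e, 2 ≤ deg H v) → ∀ e ∈ H, ∑ v ∈ e, (1 : ℝ) / (deg H v : ℝ) ≤
      (r : ℝ) * ((r : ℝ) - 1) *
        (1 / (1 + ((H.filter fun f => f ≠ e ∧ ¬ Disjoint e f).card : ℝ)))) :
    ∀ (n : ℕ) (H : Finset (Finset V)), H.card = n → IsPartite r part H → Q H →
      ∃ C M, IsCover H C ∧ IsMatching H M ∧ C.card ≤ (r - 1) * M.card := by
  intro n
  induction n using Nat.strong_induction_on with
  | _ n ih =>
    intro H hn hP hdeg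
    by_cases hA : ∃ e ∈ H, ∃ v ∈ e, deg H v = 1
    · obtain ⟨e, he, v, hv, hdv⟩ := hA
      have hce := card_edge hP he
      let H' := H.filter fun f => Disjoint e f
      have heH' : e ∉ H' := by
        intro h
        have := (Finset.mem_filter.1 h).2
        rw [disjoint_self] at this
        rw [this] at hv
        simp at hv
      have hlt : H'.card < n := by
        rw [← hn]
        apply Finset.card_lt_card
        exact ⟨Finset.filter_subset _ _, fun h => heH' (h he)⟩
      obtain ⟨C, M, hC, hM, hCM⟩ := ih _ hlt H' rfl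
        (fun f hf => hP f (Finset.mem_filter.1 hf).1)
        (hQ H H' (Finset.filter_subset _ _) hdeg)
      refine ⟨C ∪ e.erase v, insert e M, ?_, ⟨?_, ?_⟩, ?_⟩
      · intro f hf
        by_cases hdis : Disjoint e f
        · obtain ⟨w, hw, hwf⟩ := hC f (Finset.mem_filter.2 ⟨hf, hdis⟩)
          exact ⟨w, Finset.mem_union_left _ hw, hwf⟩
        · rw [Finset.not_disjoint_iff] at hdis
          obtain ⟨w, hwe, hwf⟩ := hdis
          by_cases hwv : w = v
          · have hfe : f = e := by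
              unfold deg at hdv
              rw [Finset.card_eq_one] at hdv
              obtain ⟨g, hg⟩ := hdv
              have h1 : f ∈ ({g} : Finset (Finset V)) := by
                rw [← hg]; exact Finset.mem_filter.2 ⟨hf, hwv ▸ hwf⟩
              have h2 : e ∈ ({g} : Finset (Finset V)) := by
                rw [← hg]; exact Finset.mem_filter.2 ⟨he, hv⟩
              rw [Finset.mem_singleton.1 h1, Finset.mem_singleton.1 h2]
            have hne : (e.erase v).Nonempty := by
              rw [← Finset.card_pos, Finset.card_erase_of_mem hv, hce]; omega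
            obtain ⟨u, hu⟩ := hne
            exact ⟨u, Finset.mem_union_right _ hu, hfe ▸ Finset.mem_of_mem_erase hu⟩
          · exact ⟨w, Finset.mem_union_right _ (Finset.mem_erase.2 ⟨hwv, hwe⟩), hwf⟩
      · intro f hf
        rcases Finset.mem_insert.1 hf with h | h
        · rw [h]; exact he
        · exact (Finset.mem_filter.1 (hM.1 h)).1
      · intro f hf g hg hfg
        rcases Finset.mem_insert.1 hf with h | h
        · rcases Finset.mem_insert.1 hg with h' | h'
          · exact absurd (h.trans h'.symm) hfg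
          · rw [h]; exact (Finset.mem_filter.1 (hM.1 h')).2
        · rcases Finset.mem_insert.1 hg with h' | h'
          · rw [h']; exact ((Finset.mem_filter.1 (hM.1 h)).2).symm
          · exact hM.2 f h g h' hfg
      · have heM : e ∉ M := fun h => heH' (hM.1 h)
        rw [Finset.card_insert_of_notMem heM]
        have h1 := Finset.card_union_le C (e.erase v)
        rw [Finset.card_erase_of_mem hv, hce] at h1
        calc (C ∪ e.erase v).card ≤ C.card + (r - 1) := h1
          _ ≤ (r - 1) * M.card + (r - 1) := Nat.add_le_add_right hCM _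
          _ = (r - 1) * (M.card + 1) := by ring
    · push Not at hA
      have hdeg2 : ∀ e ∈ H, ∀ v ∈ e, 2 ≤ deg H v := by
        intro e he v hv
        have h1 := hA e he v hv
        have h2 : 0 < deg H v := Finset.card_pos.2 ⟨e, Finset.mem_filter.2 ⟨he, hv⟩⟩
        omega
      exact caseB hr part H hP (hpt H hdeg hP hdeg2)

theorem tau_le {H : Finset (Finset V)} {C : Finset V} (h : IsCover H C) : tau H ≤ C.card :=
  Nat.sInf_le ⟨C, h, rfl⟩

theorem le_nu {H M : Finset (Finset V)} (h : IsMatching H M) : M.card ≤ nu H := by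
  apply le_csSup
  · refine ⟨H.card, ?_⟩
    rintro k ⟨M', hM', rfl⟩
    exact Finset.card_le_card hM'.1
  · exact ⟨M, h, rfl⟩

theorem ryser {r D : ℕ} (hr : 2 ≤ r) (hD : 0 < D) (hnum : Num r 2 D) (part : V → Fin r)
    (H : Finset (Finset V)) (hP : IsPartite r part H) (hdeg : ∀ v, deg H v ≤ D) :
    tau H ≤ (r - 1) * nu H := by
  obtain ⟨C, M, hC, hM, hCM⟩ := main_aux hr part (fun H => ∀ v, deg H v ≤ D)
    (fun H H' hH h v => (Finset.card_le_card (Finset.filter_subset_filter _ hH)).trans (h v))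
    (fun H h hP h2 e he => pointwise (by norm_num) hD hnum he (card_edge hP he) (h2 e he) (fun v _ => h v))
    _ H rfl hP hdeg
  exact (tau_le hC).trans (hCM.trans (Nat.mul_le_mul_left _ (le_nu hM)))

theorem ryser_line {r : ℕ} (hr : 2 ≤ r) (part : V → Fin r)
    (H : Finset (Finset V)) (hP : IsPartite r part H)
    (hline : ∀ e ∈ H, (H.filter fun f => f ≠ e ∧ ¬ Disjoint e f).card + 3 ≤ 2 * r) :
    tau H ≤ (r - 1) * nu H := by
  obtain ⟨C, M, hC, hM, hCM⟩ := main_aux hr part
    (fun H => ∀ e ∈ H, (H.filter fun f => f ≠ e ∧ ¬ Disjoint e f).card + 3 ≤ 2 * r)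
    (fun H H' hH h e he => by
      have h1 := h e (hH he)
      have h2 : (H'.filter fun f => f ≠ e ∧ ¬ Disjoint e f).card ≤
          (H.filter fun f => f ≠ e ∧ ¬ Disjoint e f).card :=
        Finset.card_le_card (Finset.filter_subset_filter _ hH)
      omega)
    (fun H h hP h2 e he => by
      have hce := card_edge hP he
      have h1 := h e he
      have h1' : ((H.filter fun f => f ≠ e ∧ ¬ Disjoint e f).card : ℝ) + 3 ≤ 2 * r := by
        exact_mod_cast h1
      have hrR : (2 : ℝ) ≤ r := by exact_mod_cast hr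
      have hpos : 0 < 1 + ((H.filter fun f => f ≠ e ∧ ¬ Disjoint e f).card : ℝ) := by
        positivity
      have h3 : ∑ v ∈ e, (1 : ℝ) / (deg H v : ℝ) ≤ r / 2 := by
        calc ∑ v ∈ e, (1 : ℝ) / (deg H v : ℝ) ≤ ∑ v ∈ e, (1 : ℝ) / 2 := by
              refine Finset.sum_le_sum fun v hv => ?_
              apply one_div_le_one_div_of_le (by norm_num)
              exact_mod_cast h2 e he v hv
          _ = r / 2 := by rw [Finset.sum_const, hce, nsmul_eq_mul]; ring
      refine h3.trans ?_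
      rw [mul_one_div, div_le_div_iff₀ (by norm_num) hpos]
      nlinarith)
    _ H rfl hP hline
  exact (tau_le hC).trans (hCM.trans (Nat.mul_le_mul_left _ (le_nu hM)))

/-- no induction needed: all degrees between `a` and `D` -/
theorem ryser_range {r a D : ℕ} (hr : 2 ≤ r) (ha : 0 < a) (hD : 0 < D) (hnum : Num r a D)
    (part : V → Fin r) (H : Finset (Finset V)) (hP : IsPartite r part H)
    (hdeg : ∀ e ∈ H, ∀ v ∈ e, a ≤ deg H v ∧ deg H v ≤ D) :
    tau H ≤ (r - 1) * nu H := by
  obtain ⟨C, M, hC, hM, hCM⟩ := caseB hr part H hP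
    (fun e he => pointwise ha hD hnum he (card_edge hP he) (fun v hv => (hdeg e he v hv).1)
      (fun v hv => (hdeg e he v hv).2))
  exact (tau_le hC).trans (hCM.trans (Nat.mul_le_mul_left _ (le_nu hM)))

theorem num_of {r a D : ℕ}
    (h : ((r : ℤ) * (D + a - 1) + 1) ^ 2 ≤ 4 * a * D * r * (r - 1)) : Num r a D := by
  intro s _ _
  nlinarith [sq_nonneg (((r : ℤ) * (D + a) - s) - (s - r + 1))]

theorem num3 {r : ℕ} (hr : 4 ≤ r) : Num r 2 3 := by
  rcases Nat.lt_or_ge r 5 with h | h
  · have : r = 4 := by omega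
    subst this
    intro s _ _
    push_cast
    have : 0 ≤ (s - 11) * (s - 12) := by
      rcases le_or_gt s 11 with h | h
      · exact mul_nonneg_of_nonpos_of_nonpos (by linarith) (by linarith)
      · exact mul_nonneg (by linarith) (by linarith [Int.add_one_le_iff.2 h])
    nlinarith
  · apply num_of
    push_cast
    have : (5 : ℤ) ≤ r := by exact_mod_cast h
    nlinarith

theorem num4 {r : ℕ} (hr : 6 ≤ r) : Num r 2 4 := by
  rcases Nat.lt_or_ge r 7 with h | h
  · have : r = 6 := by omega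
    subst this
    intro s _ _
    push_cast
    have : 0 ≤ (s - 20) * (s - 21) := by
      rcases le_or_gt s 20 with h | h
      · exact mul_nonneg_of_nonpos_of_nonpos (by linarith) (by linarith)
      · exact mul_nonneg (by linarith) (by linarith [Int.add_one_le_iff.2 h])
    nlinarith
  · apply num_of
    push_cast
    have : (7 : ℤ) ≤ r := by exact_mod_cast h
    nlinarith

theorem num5 {r : ℕ} (hr : 13 ≤ r) : Num r 2 5 := by
  rcases Nat.lt_or_ge r 14 with h | h
  · have : r = 13 := by omega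
    subst this
    intro s _ _
    push_cast
    have : 0 ≤ (s - 51) * (s - 52) := by
      rcases le_or_gt s 51 with h | h
      · exact mul_nonneg_of_nonpos_of_nonpos (by linarith) (by linarith)
      · exact mul_nonneg (by linarith) (by linarith [Int.add_one_le_iff.2 h])
    nlinarith
  · apply num_of
    push_cast
    have : (14 : ℤ) ≤ r := by exact_mod_cast h
    nlinarith

theorem num_succ {r a : ℕ} (ha : a + 2 ≤ r) : Num r a (a + 1) := by
  intro s h1 h2
  push_cast at h1 h2 ⊢
  have h3 : ((a : ℤ) + 2) ≤ r := by exact_mod_cast ha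
  have h0 : (0 : ℤ) ≤ a := by positivity
  -- the value at s = r (a + 1) - u, u ≥ 0
  obtain ⟨u, hu⟩ : ∃ u : ℤ, u = (r : ℤ) * (a + 1) - s := ⟨_, rfl⟩
  have hu0 : 0 ≤ u := by linarith
  have hs : s = (r : ℤ) * (a + 1) - u := by linarith
  have huu : 0 ≤ u * (u - 1) := by
    rcases hu0.eq_or_lt with h | h
    · rw [← h]; simp
    · exact mul_nonneg hu0 (by linarith [Int.add_one_le_iff.2 h])
  have key : ((r : ℤ) * (a + 1 + a) - s) * (s - r + 1) =
      (r * a) * (r * a + 1) - u * (u - 1) := by rw [hs]; ring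
  rw [key]
  have h4 : (r : ℤ) * a + 1 ≤ (a + 1) * (r - 1) := by nlinarith
  have h5 : (0 : ℤ) ≤ (r : ℤ) * a := by positivity
  calc (r : ℤ) * a * (r * a + 1) - u * (u - 1) ≤ (r : ℤ) * a * (r * a + 1) := by linarith
    _ ≤ (r : ℤ) * a * ((a + 1) * (r - 1)) := mul_le_mul_of_nonneg_left h4 h5
    _ = (a : ℤ) * (a + 1) * r * (r - 1) := by ring

/-- Ryser's conjecture for small maximum degree and for small line degree. -/
theorem ryser_all {r : ℕ} (part : V → Fin r) (H : Finset (Finset V)) (hP : IsPartite r part H)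
    (h : (4 ≤ r ∧ ∀ v, deg H v ≤ 3) ∨ (6 ≤ r ∧ ∀ v, deg H v ≤ 4) ∨ (13 ≤ r ∧ ∀ v, deg H v ≤ 5) ∨
      (2 ≤ r ∧ ∀ e ∈ H, (H.filter fun f => f ≠ e ∧ ¬ Disjoint e f).card + 3 ≤ 2 * r) ∨
      (∃ a, 1 ≤ a ∧ a + 2 ≤ r ∧ ∀ e ∈ H, ∀ v ∈ e, deg H v = a ∨ deg H v = a + 1) ∨
      (2 ≤ r ∧ ∃ a D : ℕ, 1 ≤ a ∧ 1 ≤ D ∧
        ((r : ℤ) * (D + a - 1) + 1) ^ 2 ≤ 4 * a * D * r * (r - 1) ∧
        ∀ e ∈ H, ∀ v ∈ e, a ≤ deg H v ∧ deg H v ≤ D)) :
    tau H ≤ (r - 1) * nu H := by
  rcases h with h | h | h | h | h | h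
  · exact ryser (by omega) (by norm_num) (num3 h.1) part H hP h.2
  · exact ryser (by omega) (by norm_num) (num4 h.1) part H hP h.2
  · exact ryser (by omega) (by norm_num) (num5 h.1) part H hP h.2
  · exact ryser_line h.1 part H hP h.2
  · obtain ⟨a, ha, har, hd⟩ := h
    refine ryser_range (by omega) ha (by omega) (num_succ har) part H hP fun e he v hv => ?_
    rcases hd e he v hv with h | h <;> omega
  · obtain ⟨hr, a, D, ha, hD, hq, hd⟩ := h
    exact ryser_range hr ha hD (num_of hq) part H hP hd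

end Vale.Agent.P045
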