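import Mathlib

/-! P045 (Ryser's conjecture): definitions. -/

namespace Vale.Agent.P045

variable {V : Type*} [DecidableEq V]

/-- `H` is `r`-partite and `r`-uniform with respect to the partition of the vertices given by
`part`: every edge contains exactly one vertex of each part. -/
def IsPartite (r : ℕ) (part : V → Fin r) (H : Finset (Finset V)) : Prop :=
  ∀ e ∈ H, ∀ i : Fin r, ∃! v, v ∈ e ∧ part v = i

/-- The number of edges containing the vertex `v`. -/
def deg (H : Finset (Finset V)) (v : V) : ℕ := (H.filter fun e => v ∈ e).card

/-- `C` is a vertex cover of `H`. -/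
def IsCover (H : Finset (Finset V)) (C : Finset V) : Prop := ∀ e ∈ H, ∃ v ∈ C, v ∈ e

/-- `M` is a matching of `H`: a set of pairwise disjoint edges. -/
def IsMatching (H M : Finset (Finset V)) : Prop :=
  M ⊆ H ∧ ∀ e ∈ M, ∀ f ∈ M, e ≠ f → Disjoint e f

/-- The covering number: the least size of a vertex cover. -/
noncomputable def tau (H : Finset (Finset V)) : ℕ := sInf {k | ∃ C, IsCover H C ∧ C.card = k}

/-- The matching number: the largest size of a matching. -/
noncomputable def nu (H : Finset (Finset V)) : ℕ := sSup {k | ∃ M, IsMatching H M ∧ M.card = k}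

end Vale.Agent.P045
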